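import Vale.Agent.H20.P073.Main

/-!
# P073: product homeomorphisms of the cube are `W^{1,p}` limits of diffeomorphisms

Let `1 ≤ p < ∞` and let `g₁, g₂, g₃ : ℝ → ℝ` be continuous and strictly increasing on `[0,1]`,
`C¹` on `(0,1)`, with derivative in `L^p(0,1)`.  The product map
`f x = (g₁ x₁, g₂ x₂, g₃ x₃)` is a homeomorphism of the open cube `(0,1)³` onto an open box; it is
`C¹` inside, with `f` and `Df` in `L^p` of the cube.  The theorem gives `C^∞` maps
`F j : ℝ³ → ℝ³` with `C^∞` two-sided inverses on `ℝ³`, mapping the cube onto the same box, such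
that `∫ over the cube of |F j - f|^p + |D(F j) - Df|^p` tends to `0` (Euclidean norm of vectors,
Frobenius norm of the derivative matrices, classical derivatives), every integrand being
integrable on the cube.
-/

namespace Vale.Agent.Results.P073.A_ProductHomeomorphisms

open MeasureTheory Set Filter Topology Vale.Agent.H20.P073
open scoped ContDiff

theorem result (p : ℝ) (hp : 1 ≤ p) (g : Fin 3 → ℝ → ℝ)
    (hc : ∀ i, ContinuousOn (g i) (Icc (0 : ℝ) 1))
    (hd : ∀ i, ContDiffOn ℝ 1 (g i) (Ioo (0 : ℝ) 1))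
    (hm : ∀ i, StrictMonoOn (g i) (Icc (0 : ℝ) 1))
    (hL : ∀ i, MemLp (deriv (g i)) (ENNReal.ofReal p) (volume.restrict (Ioo (0 : ℝ) 1))) :
    ∃ F : ℕ → (Fin 3 → ℝ) → (Fin 3 → ℝ),
      (∀ j, ContDiff ℝ ∞ (F j) ∧
        (∃ G : (Fin 3 → ℝ) → (Fin 3 → ℝ), ContDiff ℝ ∞ G ∧ (∀ x, G (F j x) = x) ∧
          ∀ y, F j (G y) = y) ∧
        F j '' cube = prodMap g '' cube ∧
        IntegrableOn (fun x => eucl (F j x - prodMap g x) ^ p
          + frob (fderiv ℝ (F j) x - fderiv ℝ (prodMap g) x) ^ p) cube) ∧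
      Tendsto (fun j => ∫ x in cube, (eucl (F j x - prodMap g x) ^ p
          + frob (fderiv ℝ (F j) x - fderiv ℝ (prodMap g) x) ^ p)) atTop (𝓝 0) :=
  p73_main p hp g hc hd hm hL

end Vale.Agent.Results.P073.A_ProductHomeomorphisms
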