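import Vale.Agent.H20.P073.MainAll

/-!
# P073: every `W^{1,p}` product homeomorphism of the cube is a `W^{1,p}` limit of diffeomorphisms

Let `1 ≤ p < ∞` and let `g₁, g₂, g₃ : ℝ → ℝ` be absolutely continuous on `[0,1]`, each strictly
increasing or strictly decreasing on `[0,1]`, with derivative in `L^p(0,1)`.  These are exactly
the one-variable maps for which the product map `f x = (g₁ x₁, g₂ x₂, g₃ x₃)` is a homeomorphism
of the open cube `(0,1)³` onto a bounded open box that lies in `W^{1,p}` of the cube; `f` is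
differentiable almost everywhere in the cube, with derivative `diag (gᵢ' xᵢ)`.  The theorem gives
`C^∞` maps `F j : ℝ³ → ℝ³` with `C^∞` two-sided inverses on `ℝ³`, mapping the cube onto the same
box, such that `∫ over the cube of |F j - f|^p + |D(F j) - Df|^p` tends to `0` (Euclidean norm of
vectors, Frobenius norm of the derivative matrices), every integrand being integrable on the cube.
-/

namespace Vale.Agent.Results.P073.B_ProductAbsolutelyContinuous

open MeasureTheory Set Filter Topology Vale.Agent.H20.P073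
open scoped ContDiff

theorem result (p : ℝ) (hp : 1 ≤ p) (g : Fin 3 → ℝ → ℝ)
    (hac : ∀ i, AbsolutelyContinuousOnInterval (g i) 0 1)
    (hm : ∀ i, StrictMonoOn (g i) (Icc (0 : ℝ) 1) ∨ StrictAntiOn (g i) (Icc (0 : ℝ) 1))
    (hL : ∀ i, MemLp (deriv (g i)) (ENNReal.ofReal p) (volume.restrict (Ioo (0 : ℝ) 1))) :
    ∃ F : ℕ → (Fin 3 → ℝ) → (Fin 3 → ℝ),
      (∀ j, ContDiff ℝ ∞ (F j) ∧
        (∃ G : (Fin 3 → ℝ) → (Fin 3 → ℝ), ContDiff ℝ ∞ G ∧ (∀ x, G (F j x) = x) ∧
          ∀ y, F j (G y) = y) ∧
        F j '' cube = prodMap g '' cube ∧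
        IntegrableOn (fun x => eucl (F j x - prodMap g x) ^ p
          + frob (fderiv ℝ (F j) x - fderiv ℝ (prodMap g) x) ^ p) cube) ∧
      Tendsto (fun j => ∫ x in cube, (eucl (F j x - prodMap g x) ^ p
          + frob (fderiv ℝ (F j) x - fderiv ℝ (prodMap g) x) ^ p)) atTop (𝓝 0) :=
  p73_main_all p hp g hac hm hL

end Vale.Agent.Results.P073.B_ProductAbsolutelyContinuous
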